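import Vale.Agent.P048.Main

theorem Vale.Agent.Results.P048.A_full.result (m n : ℕ) (hn : 3 ≤ n) (hnm : n ≤ m)
    (hne : (m, n) ≠ (3, 3)) :
    IsLeast {N : ℕ | ∀ G : SimpleGraph (Fin N),
      (SimpleGraph.cycleGraph m).IsContained G ∨ ∃ s : Finset (Fin N), G.IsNIndepSet n s}
      ((m - 1) * (n - 1) + 1) :=
  Vale.Agent.P048.main m n hn hnm hne
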